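import Mathlib

open Set Matroid

namespace Vale.Agent.Results.P317.GirthBound

set_option linter.unusedSectionVars false

variable {α : Type*} [Finite α]

/-- Natural-number rank of a set in a matroid on a finite type. -/
noncomputable def rk (M : Matroid α) (X : Set α) : ℕ := (M.eRk X).toNat

lemma eRk_ne_top' (M : Matroid α) (X : Set α) : M.eRk X ≠ ⊤ :=
  eRk_ne_top_iff.2 (M.isRkFinite_of_finite (toFinite X))

lemma rk_insert (M : Matroid α) {X : Set α} {e : α} (he : e ∈ M.E) (hn : e ∉ M.closure X) :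
    rk M (insert e X) = rk M X + 1 := by
  have h := eRk_insert_eq_add_one (M := M) (X := X) (e := e) ⟨he, hn⟩
  unfold rk
  rw [h, ENat.toNat_add (eRk_ne_top' M X) (by simp)]
  simp

lemma rk_indep (M : Matroid α) {I : Set α} (hI : M.Indep I) : rk M I = I.ncard := by
  unfold rk
  rw [hI.eRk_eq_encard]
  rfl

lemma rk_mono (M : Matroid α) {X Y : Set α} (h : X ⊆ Y) : rk M X ≤ rk M Y :=
  ENat.toNat_le_toNat (M.eRk_mono h) (eRk_ne_top' M Y)

lemma rk_closure (M : Matroid α) (X : Set α) : rk M (M.closure X) = rk M X := by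
  unfold rk; rw [eRk_closure_eq]

lemma rk_le_ncard (M : Matroid α) (hE : M.E = univ) (T : Set α) : rk M T ≤ T.ncard := by
  obtain ⟨I, hI⟩ := M.exists_isBasis T (by rw [hE]; exact subset_univ _)
  have : rk M T = I.ncard := by
    unfold rk
    rw [hI.eRk_eq_encard]
    rfl
  rw [this]
  exact ncard_le_ncard hI.subset (toFinite T)

/-- A set of size `r` and rank `r` is a base. -/
lemma isBase_of_rk (M : Matroid α) (hE : M.E = univ) {r : ℕ} (hr : ∀ B, M.IsBase B → B.ncard = r)
    {T : Set α} (hc : T.ncard = r) (hT : rk M T = r) : M.IsBase T := by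
  obtain ⟨I, hI⟩ := M.exists_isBasis T (by rw [hE]; exact subset_univ _)
  have h1 : rk M T = I.ncard := by
    unfold rk
    rw [hI.eRk_eq_encard]
    rfl
  have hIT : I = T := eq_of_subset_of_ncard_le hI.subset (by omega) (toFinite T)
  subst hIT
  obtain ⟨B, hB, hIB⟩ := hI.indep.exists_isBase_superset
  have hB2 := hr B hB
  have : I = B := eq_of_subset_of_ncard_le hIB (by omega) (toFinite B)
  rwa [this]

/-- The coloops of `M ↾ T` lying in `T`. -/
def L (M : Matroid α) (T : Set α) : Set α := {a | a ∈ T ∧ a ∉ M.closure (T \ {a})}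

/-- The number of elements of `L M T` outside `B₀`. -/
noncomputable def mu (M : Matroid α) (B₀ T : Set α) : ℕ := (L M T \ B₀).ncard

open Classical in
/-- The potential of a base of the first matroid. -/
noncomputable def Phi (M : Matroid α) (r d : ℕ) (B₀ T : Set α) : ℕ :=
  if M.IsBase T then 0 else (r - rk M T - 1) * d + mu M B₀ T + 1

section
variable {M₂ : Matroid α} {r d : ℕ}

lemma rk_lt (hE : M₂.E = univ) (hr : ∀ B, M₂.IsBase B → B.ncard = r)
    {T : Set α} (hc : T.ncard = r) (hT : ¬ M₂.IsBase T) : rk M₂ T < r := by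
  have h1 := rk_le_ncard M₂ hE T
  rcases lt_or_eq_of_le (hc ▸ h1) with h | h
  · exact h
  · exact absurd (isBase_of_rk M₂ hE hr hc h) hT

lemma ncard_L_lt (hE : M₂.E = univ) (hr : ∀ B, M₂.IsBase B → B.ncard = r)
    (hg : ∀ I : Set α, I.ncard + d ≤ r → M₂.Indep I)
    {T : Set α} (hc : T.ncard = r) (hT : ¬ M₂.IsBase T) : (L M₂ T).ncard < d := by
  have hdep : ¬ M₂.Indep T := by
    intro hI
    apply hT
    apply isBase_of_rk M₂ hE hr hc
    rw [rk_indep M₂ hI, hc]
  have hTE : T ⊆ M₂.E := by rw [hE]; exact subset_univ _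
  obtain ⟨C, hCT, hC⟩ := (Dep.exists_isCircuit_subset ⟨hdep, hTE⟩)
  have hCL : Disjoint C (L M₂ T) := by
    rw [Set.disjoint_left]
    intro x hxC hxL
    apply hxL.2
    have := hC.mem_closure_sdiff_singleton_of_mem hxC
    exact M₂.closure_subset_closure (sdiff_subset_sdiff_left hCT) this
  have hLT : L M₂ T ⊆ T := fun x hx => hx.1
  have hcount : C.ncard + (L M₂ T).ncard ≤ r := by
    rw [← ncard_union_eq hCL (toFinite _) (toFinite _), ← hc]
    exact ncard_le_ncard (union_subset hCT hLT) (toFinite T)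
  have hCdep : ¬ (C.ncard + d ≤ r) := fun h => hC.dep.not_indep (hg C h)
  omega

lemma mu_lt (hE : M₂.E = univ) (hr : ∀ B, M₂.IsBase B → B.ncard = r)
    (hg : ∀ I : Set α, I.ncard + d ≤ r → M₂.Indep I) (B₀ : Set α)
    {T : Set α} (hc : T.ncard = r) (hT : ¬ M₂.IsBase T) : mu M₂ B₀ T < d := by
  have h1 := ncard_L_lt hE hr hg hc hT
  have h2 : mu M₂ B₀ T ≤ (L M₂ T).ncard :=
    ncard_le_ncard sdiff_subset (toFinite _)
  omega

/-- Every set of size `r` has rank at least `r - d`. -/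
lemma sub_le_rk (hg : ∀ I : Set α, I.ncard + d ≤ r → M₂.Indep I)
    {T : Set α} (hc : T.ncard = r) : r - d ≤ rk M₂ T := by
  by_cases hdr : d ≤ r
  swap
  · have : r - d = 0 := by omega
    omega
  obtain ⟨I, hIT, hI⟩ := exists_subset_card_eq (s := T) (n := r - d) (by omega)
  have hIi : M₂.Indep I := by
    apply hg
    omega
  have := rk_mono M₂ hIT
  rw [rk_indep M₂ hIi, hI] at this
  exact this

lemma Phi_le (hE : M₂.E = univ) (hr : ∀ B, M₂.IsBase B → B.ncard = r)
    (hg : ∀ I : Set α, I.ncard + d ≤ r → M₂.Indep I) (B₀ : Set α)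
    {T : Set α} (hc : T.ncard = r) : Phi M₂ r d B₀ T ≤ d ^ 2 := by
  unfold Phi
  split_ifs with hT
  · exact Nat.zero_le _
  · have h1 := mu_lt hE hr hg B₀ hc hT
    have h2 := sub_le_rk hg hc
    have h3 := rk_lt hE hr hc hT
    have h4 : r - rk M₂ T - 1 + 1 ≤ d := by omega
    calc (r - rk M₂ T - 1) * d + mu M₂ B₀ T + 1 ≤ (r - rk M₂ T - 1) * d + d := by omega
      _ = (r - rk M₂ T - 1 + 1) * d := by ring
      _ ≤ d * d := Nat.mul_le_mul_right _ h4
      _ = d ^ 2 := by ring

end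

lemma ncard_insert_sdiff {T : Set α} {a b : α} (ha : a ∈ T) (hb : b ∉ T) :
    (insert b (T \ {a})).ncard = T.ncard := by
  have h1 : b ∉ T \ {a} := fun h => hb h.1
  rw [ncard_insert_of_notMem h1 (toFinite _), ncard_sdiff_singleton_of_mem ha]
  have : 0 < T.ncard := (ncard_pos (toFinite T)).2 ⟨a, ha⟩
  omega

/-- The exchange step: every base of `M₁` that is not a base of `M₂` can be changed by one swap,
staying a base of `M₁`, so that the potential drops. -/
lemma step {M₁ M₂ : Matroid α} {r d : ℕ} (hE₁ : M₁.E = univ) (hE₂ : M₂.E = univ)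
    (hr₁ : ∀ B, M₁.IsBase B → B.ncard = r) (hr₂ : ∀ B, M₂.IsBase B → B.ncard = r)
    (hg : ∀ I : Set α, I.ncard + d ≤ r → M₂.Indep I) {B₀ T : Set α}
    (hB₀₁ : M₁.IsBase B₀) (hB₀₂ : M₂.IsBase B₀) (hT : M₁.IsBase T) (hT₂ : ¬ M₂.IsBase T) :
    ∃ a ∈ T, ∃ b, b ∉ T ∧ M₁.IsBase (insert b (T \ {a})) ∧
      Phi M₂ r d B₀ (insert b (T \ {a})) < Phi M₂ r d B₀ T := by
  have hc : T.ncard = r := hr₁ T hT
  have hrk := rk_lt hE₂ hr₂ hc hT₂
  have hTE₂ : T ⊆ M₂.E := by rw [hE₂]; exact subset_univ _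
  -- an element of `B₀` outside the closure of `T`
  obtain ⟨b, hbB₀, hbcl⟩ : ∃ b ∈ B₀, b ∉ M₂.closure T := by
    by_contra hcon
    push Not at hcon
    have hsp : M₂.closure B₀ ⊆ M₂.closure T := by
      have := M₂.closure_subset_closure_of_subset_closure hcon
      exact this
    rw [hB₀₂.closure_eq] at hsp
    have h2 : rk M₂ T = r := by
      have h3 : rk M₂ B₀ = r := by rw [rk_indep M₂ hB₀₂.indep, hr₂ _ hB₀₂]
      have h4 : rk M₂ B₀ ≤ rk M₂ (M₂.closure T) :=
        rk_mono M₂ (hB₀₂.subset_ground.trans hsp)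
      rw [rk_closure] at h4
      omega
    omega
  have hbT : b ∉ T := fun h => hbcl (M₂.mem_closure_of_mem h hTE₂)
  have hbE₁ : b ∈ M₁.E := by rw [hE₁]; exact mem_univ _
  have hbE₂ : b ∈ M₂.E := by rw [hE₂]; exact mem_univ _
  have hbcl₁ : b ∈ M₁.closure T := by rw [hT.closure_eq]; exact hbE₁
  set C := M₁.fundCircuit b T with hCdef
  have hCcirc : M₁.IsCircuit C := hT.fundCircuit_isCircuit hbE₁ hbT
  have hCsub : C ⊆ insert b T := M₁.fundCircuit_subset_insert b T
  -- exchange within `M₁`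
  have hexch : ∀ a ∈ C, a ≠ b → a ∈ T ∧ M₁.IsBase (insert b (T \ {a})) := by
    intro a haC hab
    have haT : a ∈ T := by
      rcases hCsub haC with h | h
      · exact absurd h hab
      · exact h
    refine ⟨haT, ?_⟩
    have h1 := (hT.indep.mem_fundCircuit_iff hbcl₁ hbT).1 haC
    have h2 : insert b T \ {a} = insert b (T \ {a}) := by
      ext x
      simp only [mem_sdiff, mem_insert_iff, mem_singleton_iff]
      constructor
      · rintro ⟨h | h, h'⟩
        · exact Or.inl h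
        · exact Or.inr ⟨h, h'⟩
      · rintro (h | ⟨h, h'⟩)
        · subst h; exact ⟨Or.inl rfl, fun h => hab h.symm⟩
        · exact ⟨Or.inr h, h'⟩
    rw [h2] at h1
    exact hT.exchange_isBase_of_indep hbT h1
  by_cases hcase : ∃ a ∈ C, a ≠ b ∧ a ∈ M₂.closure (T \ {a})
  · -- Case A : the nullity drops
    obtain ⟨a, haC, hab, hacl⟩ := hcase
    obtain ⟨haT, hbase⟩ := hexch a haC hab
    refine ⟨a, haT, b, hbT, hbase, ?_⟩
    have hins : insert a (T \ {a}) = T := insert_sdiff_self_of_mem haT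
    have hclT : M₂.closure (T \ {a}) = M₂.closure T := by
      conv_rhs => rw [← hins]
      exact (closure_insert_eq_of_mem_closure hacl).symm
    have hrkT : rk M₂ (T \ {a}) = rk M₂ T := by
      rw [← rk_closure, hclT, rk_closure]
    have hnew : rk M₂ (insert b (T \ {a})) = rk M₂ T + 1 := by
      rw [rk_insert M₂ hbE₂ (by rw [hclT]; exact hbcl), hrkT]
    have hc' : (insert b (T \ {a})).ncard = r := by rw [ncard_insert_sdiff haT hbT, hc]
    unfold Phi
    rw [if_neg hT₂]
    split_ifs with hT'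
    · omega
    · have h1 := mu_lt hE₂ hr₂ hg B₀ hc' hT'
      have h2 := rk_lt hE₂ hr₂ hc' hT'
      rw [hnew] at h2 ⊢
      have h3 : r - rk M₂ T - 1 = (r - (rk M₂ T + 1) - 1) + 1 := by omega
      rw [h3]
      have h4 : (r - (rk M₂ T + 1) - 1 + 1) * d = (r - (rk M₂ T + 1) - 1) * d + d := by ring
      rw [h4]
      have h5 : r - (rk M₂ T + 1) - 1 + 1 - 1 = r - (rk M₂ T + 1) - 1 := by omega
      omega
  · -- Case B : the nullity stays, the coloops move to `B₀`
    push Not at hcase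
    have hCB₀ : ¬ C ⊆ B₀ := fun h => hCcirc.dep.not_indep (hB₀₁.indep.subset h)
    obtain ⟨a, haC, haB₀⟩ := not_subset.1 hCB₀
    have hab : a ≠ b := fun h => haB₀ (h ▸ hbB₀)
    obtain ⟨haT, hbase⟩ := hexch a haC hab
    have hacl : a ∉ M₂.closure (T \ {a}) := hcase a haC hab
    refine ⟨a, haT, b, hbT, hbase, ?_⟩
    have hins : insert a (T \ {a}) = T := insert_sdiff_self_of_mem haT
    have haE₂ : a ∈ M₂.E := by rw [hE₂]; exact mem_univ _
    have h1 : rk M₂ T = rk M₂ (T \ {a}) + 1 := by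
      conv_lhs => rw [← hins]
      exact rk_insert M₂ haE₂ hacl
    have hbcl' : b ∉ M₂.closure (T \ {a}) :=
      fun h => hbcl (M₂.closure_subset_closure sdiff_subset h)
    have h2 : rk M₂ (insert b (T \ {a})) = rk M₂ (T \ {a}) + 1 := rk_insert M₂ hbE₂ hbcl'
    have hLsub : L M₂ (insert b (T \ {a})) \ B₀ ⊆ (L M₂ T \ B₀) \ {a} := by
      rintro x ⟨⟨hx1, hx2⟩, hxB⟩
      have hxb : x ≠ b := fun h => hxB (h ▸ hbB₀)
      have hxT : x ∈ T \ {a} := by
        rcases hx1 with h | h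
        · exact absurd h hxb
        · exact h
      have hxa : x ≠ a := hxT.2
      refine ⟨⟨⟨hxT.1, ?_⟩, hxB⟩, hxa⟩
      intro hxcl
      set X := (T \ {a}) \ {x} with hX
      have hXb : X ⊆ insert b (T \ {a}) \ {x} := by
        intro y hy
        exact ⟨Or.inr hy.1, hy.2⟩
      have hxX : x ∉ M₂.closure X := fun h => hx2 (M₂.closure_subset_closure hXb h)
      have hT1 : T \ {x} = insert a X := by
        ext y
        simp only [hX, mem_sdiff, mem_singleton_iff, mem_insert_iff]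
        constructor
        · rintro ⟨hy, hyx⟩
          by_cases hya : y = a
          · exact Or.inl hya
          · exact Or.inr ⟨⟨hy, hya⟩, hyx⟩
        · rintro (h | ⟨⟨h, _⟩, h'⟩)
          · subst h; exact ⟨haT, fun h => hxa h.symm⟩
          · exact ⟨h, h'⟩
      have hT2 : insert x X = T \ {a} := by
        rw [hX]
        exact insert_sdiff_self_of_mem hxT
      rw [hT1] at hxcl
      have := M₂.closure_exchange (e := x) (f := a) (X := X) ⟨hxcl, hxX⟩
      rw [hT2] at this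
      exact hacl this.1
    have hmu : mu M₂ B₀ (insert b (T \ {a})) + 1 ≤ mu M₂ B₀ T := by
      have h3 : ((L M₂ T \ B₀) \ {a}).ncard + 1 = (L M₂ T \ B₀).ncard := by
        apply ncard_sdiff_singleton_add_one _ (toFinite _)
        exact ⟨⟨haT, hacl⟩, haB₀⟩
      have h4 := ncard_le_ncard hLsub (toFinite _)
      unfold mu
      omega
    unfold Phi
    rw [if_neg hT₂]
    split_ifs with hT'
    · omega
    · rw [h2, h1]
      have : r - (rk M₂ (T \ {a}) + 1) - 1 = r - (rk M₂ (T \ {a}) + 1) - 1 := rfl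
      omega

/-- The sets reachable by at most `s` swaps from a common base. -/
def A (F : Set (Set α)) : ℕ → Set (Set α)
  | 0 => F
  | s + 1 => A F s ∪ {T | ∃ a ∈ T, ∃ b, b ∉ T ∧ insert b (T \ {a}) ∈ A F s}

lemma A_mono (F : Set (Set α)) {s t : ℕ} (h : s ≤ t) : A F s ⊆ A F t := by
  induction h with
  | refl => exact subset_rfl
  | step _ ih => exact ih.trans subset_union_left

lemma ncard_biUnion_le' {β γ : Type*} [Finite γ] (S : Set β) (hS : S.Finite) (f : β → Set γ) (m : ℕ)
    (hf : ∀ x ∈ S, (f x).ncard ≤ m) : (⋃ x ∈ S, f x).ncard ≤ S.ncard * m := by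
  induction S, hS using Set.Finite.induction_on with
  | empty => simp
  | @insert a s ha hs ih =>
    rw [biUnion_insert, ncard_insert_of_notMem ha hs]
    have h1 := ncard_union_le (f a) (⋃ x ∈ s, f x)
    have h2 := ih (fun x hx => hf x (mem_insert_of_mem _ hx))
    have h3 := hf a (mem_insert _ _)
    calc _ ≤ _ := h1
      _ ≤ m + s.ncard * m := by omega
      _ = (s.ncard + 1) * m := by ring

/-- The neighbours in the swap graph of a set. -/
def nbr (T : Set α) : Set (Set α) :=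
  (fun p : α × α => insert p.2 (T \ {p.1})) '' (T ×ˢ Tᶜ)

lemma ncard_nbr (T : Set α) : (nbr T).ncard ≤ T.ncard * (Nat.card α - T.ncard) := by
  have h1 : (nbr T).ncard ≤ (T ×ˢ Tᶜ).ncard := ncard_image_le (toFinite _)
  have h2 : (T ×ˢ Tᶜ).ncard = T.ncard * (Tᶜ).ncard := ncard_prod
  have h3 : (Tᶜ).ncard = Nat.card α - T.ncard := ncard_compl _
  rw [h2, h3] at h1
  exact h1

lemma ncard_A_succ (F : Set (Set α)) (r s : ℕ) :
    (A F (s + 1) ∩ {T | T.ncard = r}).ncard ≤
      (1 + r * (Nat.card α - r)) * (A F s ∩ {T | T.ncard = r}).ncard := by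
  set S := A F s ∩ {T | T.ncard = r} with hS
  have hsub : A F (s + 1) ∩ {T | T.ncard = r} ⊆ S ∪ ⋃ T' ∈ S, nbr T' := by
    rintro T ⟨hT | ⟨a, ha, b, hb, hT'⟩, hc⟩
    · exact Or.inl ⟨hT, hc⟩
    · refine Or.inr ?_
      have hc' : (insert b (T \ {a})).ncard = r := by
        rw [ncard_insert_sdiff ha hb]; exact hc
      refine mem_biUnion (x := insert b (T \ {a})) ⟨hT', hc'⟩ ?_
      refine ⟨(b, a), ⟨mem_insert _ _, ?_⟩, ?_⟩
      · rintro (h | h)
        · exact hb (h ▸ ha)
        · exact h.2 rfl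
      · have hab : a ≠ b := fun h => hb (h ▸ ha)
        ext x
        simp only [mem_insert_iff, mem_sdiff, mem_singleton_iff]
        constructor
        · rintro (h | ⟨h | h, h'⟩)
          · subst h; exact ha
          · exact absurd h h'
          · exact h.1
        · intro hx
          by_cases hxa : x = a
          · exact Or.inl hxa
          · refine Or.inr ⟨Or.inr ⟨hx, hxa⟩, ?_⟩
            intro h
            exact hb (h ▸ hx)
  have h1 := ncard_le_ncard hsub (toFinite _)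
  have h2 := ncard_union_le S (⋃ T' ∈ S, nbr T')
  have h3 : (⋃ T' ∈ S, nbr T').ncard ≤ S.ncard * (r * (Nat.card α - r)) := by
    apply ncard_biUnion_le' S (toFinite _)
    rintro T' ⟨_, hc⟩
    have := ncard_nbr T'
    rw [show T'.ncard = r from hc] at this
    exact this
  calc _ ≤ _ := h1
    _ ≤ _ := h2
    _ ≤ S.ncard + S.ncard * (r * (Nat.card α - r)) := by omega
    _ = _ := by ring

lemma ncard_A_le (F : Set (Set α)) (r s : ℕ) :
    (A F s ∩ {T | T.ncard = r}).ncard ≤
      (1 + r * (Nat.card α - r)) ^ s * (F ∩ {T | T.ncard = r}).ncard := by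
  induction s with
  | zero => simp [A]
  | succ s ih =>
    calc _ ≤ _ := ncard_A_succ F r s
      _ ≤ (1 + r * (Nat.card α - r)) * ((1 + r * (Nat.card α - r)) ^ s *
            (F ∩ {T | T.ncard = r}).ncard) := Nat.mul_le_mul_left _ ih
      _ = _ := by ring

/-- **Main theorem.** Let `M₁`, `M₂` be matroids of rank `r` on a finite set, and suppose that every
set of at most `r - d` elements is independent in `M₂` (so `d = 1` means that `M₂` is paving).
If `M₁` and `M₂` have a common base, then the bases of `M₁` outnumber the common bases by at most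
the factor `(1 + r (n - r)) ^ (d ^ 2)`. -/
theorem result (M₁ M₂ : Matroid α) (r d : ℕ) (hE₁ : M₁.E = univ) (hE₂ : M₂.E = univ)
    (hr₁ : ∀ B, M₁.IsBase B → B.ncard = r) (hr₂ : ∀ B, M₂.IsBase B → B.ncard = r)
    (hg : ∀ I : Set α, I.ncard + d ≤ r → M₂.Indep I)
    (hcommon : ∃ B, M₁.IsBase B ∧ M₂.IsBase B) :
    {B | M₁.IsBase B}.ncard ≤
      (1 + r * (Nat.card α - r)) ^ (d ^ 2) * {B | M₁.IsBase B ∧ M₂.IsBase B}.ncard := by
  obtain ⟨B₀, hB₀₁, hB₀₂⟩ := hcommon
  set F : Set (Set α) := {B | M₁.IsBase B ∧ M₂.IsBase B} with hF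
  -- every base of `M₁` lies in `A F (Phi T)`
  have key : ∀ n : ℕ, ∀ T, M₁.IsBase T → Phi M₂ r d B₀ T ≤ n → T ∈ A F n := by
    intro n
    induction n with
    | zero =>
      intro T hT hn
      by_cases hT₂ : M₂.IsBase T
      · exact ⟨hT, hT₂⟩
      · unfold Phi at hn
        rw [if_neg hT₂] at hn
        omega
    | succ n ih =>
      intro T hT hn
      by_cases hT₂ : M₂.IsBase T
      · exact A_mono F (Nat.zero_le _) (show T ∈ A F 0 from ⟨hT, hT₂⟩)
      · obtain ⟨a, ha, b, hb, hbase, hlt⟩ := step hE₁ hE₂ hr₁ hr₂ hg hB₀₁ hB₀₂ hT hT₂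
        exact Or.inr ⟨a, ha, b, hb, ih _ hbase (by omega)⟩
  have hsub : {B | M₁.IsBase B} ⊆ A F (d ^ 2) ∩ {T | T.ncard = r} := by
    intro T hT
    exact ⟨key _ T hT (Phi_le hE₂ hr₂ hg B₀ (hr₁ T hT)), hr₁ T hT⟩
  have h1 := ncard_le_ncard hsub (toFinite _)
  have h2 := ncard_A_le F r (d ^ 2)
  have h3 : (F ∩ {T | T.ncard = r}).ncard ≤ F.ncard :=
    ncard_le_ncard inter_subset_left (toFinite _)
  calc _ ≤ _ := h1
    _ ≤ _ := h2
    _ ≤ _ := Nat.mul_le_mul_left _ h3

end Vale.Agent.Results.P317.GirthBound
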